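import Mathlib

/-!
# M1: Nagata's change of variables (copy of the private part of Mathlib's `NoetherNormalization`)
-/

namespace Vale.Agent.P295Q

open Polynomial MvPolynomial Ideal Nat RingHom List

variable {k : Type} [Field k] {n : ℕ} (f : MvPolynomial (Fin (n + 1)) k)
variable (v w : Fin (n + 1) →₀ ℕ)

/-- the base -/
def M1up : ℕ := 2 + f.totalDegree

variable {f v} in
theorem M1_lt_up (vlt : ∀ i, v i < M1up f) : ∀ l ∈ ofFn v, l < M1up f := by
  intro l hl
  rw [List.mem_ofFn] at hl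
  obtain ⟨i, rfl⟩ := hl
  exact vlt i

/-- exponents `up ^ i` -/
def M1r (i : Fin (n + 1)) : ℕ := M1up f ^ i.1

noncomputable abbrev M1T1 (c : k) :
    MvPolynomial (Fin (n + 1)) k →ₐ[k] MvPolynomial (Fin (n + 1)) k :=
  aeval fun i ↦ if i = 0 then MvPolynomial.X 0 else MvPolynomial.X i + c • MvPolynomial.X 0 ^ M1r f i

theorem M1_t1_comp_t1_neg (c : k) : (M1T1 f c).comp (M1T1 f (-c)) = AlgHom.id _ _ := by
  rw [comp_aeval, ← MvPolynomial.aeval_X_left]
  ext i v
  cases i using Fin.cases <;> simp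

noncomputable abbrev M1T := AlgEquiv.ofAlgHom (M1T1 f 1) (M1T1 f (-1))
  (M1_t1_comp_t1_neg f 1) (by simpa using M1_t1_comp_t1_neg f (-1))

theorem M1_sum_r_mul_ne (vlt : ∀ i, v i < M1up f) (wlt : ∀ i, w i < M1up f) (ne : v ≠ w) :
    ∑ x : Fin (n + 1), M1r f x * v x ≠ ∑ x : Fin (n + 1), M1r f x * w x := by
  intro h
  refine ne <| Finsupp.ext <| congrFun <| ofFn_inj.mp ?_
  apply ofDigits_inj_of_len_eq (Nat.lt_add_right f.totalDegree one_lt_two)
    (by simp) (M1_lt_up vlt) (M1_lt_up wlt)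
  simpa only [ofDigits_eq_sum_mapIdx, mapIdx_eq_ofFn, get_ofFn, length_ofFn,
    Fin.val_cast, mul_comm, sum_ofFn, M1r, M1up] using! h

theorem M1_degreeOf_zero_t {a : k} (ha : a ≠ 0) : ((M1T f) (monomial v a)).degreeOf 0 =
    ∑ i : Fin (n + 1), (M1r f i) * v i := by
  rw [← natDegree_finSuccEquiv, monomial_eq, Finsupp.prod_pow v fun a ↦ MvPolynomial.X a]
  simp only [Fin.prod_univ_succ, Fin.sum_univ_succ, map_mul, map_prod, map_pow,
    AlgEquiv.ofAlgHom_apply, MvPolynomial.aeval_C, MvPolynomial.aeval_X, if_pos, Fin.succ_ne_zero,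
    ite_false, one_smul, map_add, finSuccEquiv_X_zero, finSuccEquiv_X_succ, algebraMap_eq]
  have h (i : Fin n) :
      (Polynomial.C (MvPolynomial.X (R := k) i) + Polynomial.X ^ M1r f i.succ) ^ v i.succ ≠ 0 :=
    pow_ne_zero (v i.succ) (leadingCoeff_ne_zero.mp <| by
      have hr : 0 < M1r f i.succ := by unfold M1r M1up; positivity
      rw [add_comm, leadingCoeff_X_pow_add_C hr]
      exact one_ne_zero)
  rw [natDegree_mul (by simp [ha]) (mul_ne_zero (by simp) (Finset.prod_ne_zero_iff.mpr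
    (fun i _ ↦ h i))), natDegree_mul (by simp) (Finset.prod_ne_zero_iff.mpr (fun i _ ↦ h i)),
    natDegree_prod _ _ (fun i _ ↦ h i), natDegree_finSuccEquiv, degreeOf_C]
  have h0 : M1r f 0 = 1 := by simp [M1r]
  simpa only [natDegree_pow, zero_add, natDegree_X, mul_one, h0, one_mul,
    add_right_inj] using Finset.sum_congr rfl (fun i _ ↦ by
    rw [add_comm (Polynomial.C _), natDegree_X_pow_add_C, mul_comm])

theorem M1_degreeOf_t_ne_of_ne (hv : v ∈ f.support) (hw : w ∈ f.support) (ne : v ≠ w) :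
    (M1T f <| monomial v <| coeff v f).degreeOf 0 ≠
    (M1T f <| monomial w <| coeff w f).degreeOf 0 := by
  rw [M1_degreeOf_zero_t _ _ <| mem_support_iff.mp hv, M1_degreeOf_zero_t _ _ <| mem_support_iff.mp hw]
  refine M1_sum_r_mul_ne f v w (fun i ↦ ?_) (fun i ↦ ?_) ne <;>
  exact lt_of_le_of_lt ((monomial_le_degreeOf i ‹_›).trans (degreeOf_le_totalDegree f i))
    (by unfold M1up; lia)

theorem M1_leadingCoeff_finSuccEquiv_t :
    (finSuccEquiv k n ((M1T f) ((monomial v) (coeff v f)))).leadingCoeff =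
    algebraMap k _ (coeff v f) := by
  rw [monomial_eq, Finsupp.prod_fintype]
  · simp only [map_mul, map_prod, leadingCoeff_mul, leadingCoeff_prod]
    rw [AlgEquiv.ofAlgHom_apply, algHom_C, algebraMap_eq, finSuccEquiv_apply,
      eval₂Hom_C, coe_comp]
    simp only [AlgEquiv.ofAlgHom_apply, Function.comp_apply, leadingCoeff_C, map_pow,
      leadingCoeff_pow, algebraMap_eq]
    have : ∀ j, ((finSuccEquiv k n) ((M1T1 f) 1 (MvPolynomial.X j))).leadingCoeff = 1 := fun j ↦ by
      by_cases h : j = 0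
      · simp [h, finSuccEquiv_apply]
      · simp only [aeval_eq_bind₁, bind₁_X_right, if_neg h, one_smul, map_add, map_pow]
        obtain ⟨i, rfl⟩ := Fin.exists_succ_eq.mpr h
        have hr : 0 < M1r f i.succ := by unfold M1r M1up; positivity
        rw [finSuccEquiv_X_succ, finSuccEquiv_X_zero, add_comm, leadingCoeff_X_pow_add_C hr]
    simp only [this, one_pow, Finset.prod_const_one, mul_one]
  exact fun i ↦ pow_zero _

theorem M1_T_leadingcoeff_isUnit (fne : f ≠ 0) :
    IsUnit (finSuccEquiv k n (M1T f f)).leadingCoeff := by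
  obtain ⟨v, vin, vs⟩ := Finset.exists_max_image f.support
    (fun v ↦ (M1T f ((monomial v) (coeff v f))).degreeOf 0) (support_nonempty.mpr fne)
  set h := fun w ↦ (MvPolynomial.monomial w) (coeff w f)
  simp only [← natDegree_finSuccEquiv] at vs
  replace vs : ∀ x ∈ f.support \ {v}, (finSuccEquiv k n ((M1T f) (h x))).degree <
      (finSuccEquiv k n ((M1T f) (h v))).degree := by
    intro x hx
    obtain ⟨h1, h2⟩ := Finset.mem_sdiff.mp hx
    apply degree_lt_degree <| lt_of_le_of_ne (vs x h1) ?_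
    simpa only [natDegree_finSuccEquiv]
      using M1_degreeOf_t_ne_of_ne f _ _ h1 vin <| ne_of_not_mem_cons h2
  have coeff : (finSuccEquiv k n ((M1T f) (h v + ∑ x ∈ f.support \ {v}, h x))).leadingCoeff =
      (finSuccEquiv k n ((M1T f) (h v))).leadingCoeff := by
    simp only [map_add, map_sum]
    rw [add_comm]
    apply leadingCoeff_add_of_degree_lt <| (lt_of_le_of_lt <| degree_sum_le _ _) ?_
    have h2 : h v ≠ 0 := by simpa [h] using mem_support_iff.mp vin
    replace h2 : (finSuccEquiv k n ((M1T f) (h v))) ≠ 0 := fun eq ↦ h2 <|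
      by simpa only [map_eq_zero_iff _ (AlgEquiv.injective _)] using eq
    exact (Finset.sup_lt_iff <| Ne.bot_lt (fun x ↦ h2 <| degree_eq_bot.mp x)).mpr vs
  nth_rw 2 [← f.support_sum_monomial_coeff]
  rw [Finset.sum_eq_add_sum_sdiff_singleton_of_mem vin h]
  rw [M1_leadingCoeff_finSuccEquiv_t] at coeff
  simpa only [coeff, algebraMap_eq] using (mem_support_iff.mp vin).isUnit.map MvPolynomial.C

/-- after a change of variables a nonzero polynomial has a unit as leading coefficient -/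
theorem M1_exists_monic {k : Type} [Field k] (r : ℕ) (p : MvPolynomial (Fin (r + 1)) k) (hp : p ≠ 0) :
    ∃ T : MvPolynomial (Fin (r + 1)) k ≃ₐ[k] MvPolynomial (Fin (r + 1)) k,
      IsUnit (MvPolynomial.finSuccEquiv k r (T p)).leadingCoeff :=
  ⟨M1T p, M1_T_leadingcoeff_isUnit p hp⟩

end Vale.Agent.P295Q
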