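import Vale.Agent.P295Q.Horrocks
import Vale.Agent.P295Q.Monic

namespace Vale.Agent.P295Q

open Matrix Polynomial

variable {R ι : Type} [CommRing R] [Fintype ι] [DecidableEq ι]

/-- `P(x, y) ↦ P(x, c y)` on `R[x][y]` -/
noncomputable def scaleY {R : Type} [CommRing R] (c : R) : R[X][X] →+* R[X][X] :=
  Polynomial.eval₂RingHom C (C (C c) * X)

/-- the map `R[x][y] → S[x][y]` -/
noncomputable def map2 {R S : Type} [CommRing R] [CommRing S] (φ : R →+* S) : R[X][X] →+* S[X][X] :=
  Polynomial.mapRingHom (Polynomial.mapRingHom φ)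

private theorem l1_coeff {S : Type} [CommRing S] (c : S) (P : S[X][X]) (k : ℕ) :
    (scaleY c P).coeff k = P.coeff k * C c ^ k := by
  have h : scaleY c P = P.comp (C (C c) * X) := rfl
  rw [h, Polynomial.comp_C_mul_X_coeff]

/-- L1.  Clearing denominators: `P = ∑ P_k(x) y^k`, `P_0` in the image; `c` = common denominator of
the coefficients of all `P_k`; `P(x, c a y) = P_0 + ∑_(k ≥ 1) P_k c^k a^k y^k`. -/
theorem exists_scale [IsDomain R] (m : Ideal R) [m.IsPrime]
    (P : (Localization.AtPrime m)[X][X])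
    (h0 : ∃ q : R[X], q.map (algebraMap R (Localization.AtPrime m)) = P.coeff 0) :
    ∃ c : R, c ∉ m ∧ ∀ a : R, ∃ Q : R[X][X], map2 (algebraMap R (Localization.AtPrime m)) Q =
      scaleY (algebraMap R (Localization.AtPrime m) (c * a)) P := by
  classical
  let s : Finset (Localization.AtPrime m) :=
    P.support.biUnion (fun k => (P.coeff k).support.image (fun j => (P.coeff k).coeff j))
  obtain ⟨⟨b, hb⟩, hbs⟩ := IsLocalization.exist_integer_multiples_of_finset m.primeCompl s
  refine ⟨b, hb, fun a => ?_⟩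
  set φ := algebraMap R (Localization.AtPrime m) with hφ
  have hk : ∀ k, ∃ q : R[X], q.map φ = C (φ b) * P.coeff k := by
    intro k
    have : C (φ b) * P.coeff k ∈ lifts φ := by
      rw [lifts_iff_coeff_lifts]
      intro j
      rw [coeff_C_mul]
      by_cases h : (P.coeff k).coeff j = 0
      · rw [h, mul_zero]
        exact ⟨0, map_zero φ⟩
      · have hmem : (P.coeff k).coeff j ∈ s := by
          refine Finset.mem_biUnion.2 ⟨k, ?_, Finset.mem_image.2 ⟨j, mem_support_iff.2 h, rfl⟩⟩
          rw [mem_support_iff]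
          intro h'
          rw [h'] at h
          exact h (coeff_zero j)
        obtain ⟨r, hr⟩ := hbs _ hmem
        refine ⟨r, ?_⟩
        rw [hφ, hr, Algebra.smul_def]
    exact (mem_lifts _).1 this
  have hlift : scaleY (φ (b * a)) P ∈ lifts (mapRingHom φ) := by
    rw [lifts_iff_coeff_lifts]
    intro k
    rw [l1_coeff]
    rcases Nat.eq_zero_or_pos k with h | h
    · subst h
      obtain ⟨q, hq⟩ := h0
      refine ⟨q, ?_⟩
      rw [pow_zero, mul_one, ← hq]
      rfl
    · obtain ⟨q, hq⟩ := hk k
      obtain ⟨l, rfl⟩ : ∃ l, k = l + 1 := ⟨k - 1, by omega⟩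
      refine ⟨q * (C (b ^ l * a ^ (l + 1))), ?_⟩
      rw [map_mul]
      change q.map φ * (C (b ^ l * a ^ (l + 1))).map φ = _
      rw [hq, Polynomial.map_C]
      simp only [map_mul, map_pow]
      ring
  obtain ⟨Q, hQ⟩ := (mem_lifts _).1 hlift
  exact ⟨Q, hQ⟩

private theorem l2_shift_coeff {S : Type} [CommRing S] (c : S) (p : S[X]) :
    (shift c p).coeff 0 = p := by
  have h : (Polynomial.evalRingHom (0 : S[X])).comp (shift c) = RingHom.id _ := by
    ext
    · simp [shift]
    · simp [shift]
  rw [coeff_zero_eq_eval_zero]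
  exact congrArg (fun g => g p) (congrArg DFunLike.coe h)

private theorem l2_scale_shift {S : Type} [CommRing S] (c : S) (p : S[X]) :
    scaleY c (shift 1 p) = shift c p := by
  have h : (scaleY c).comp (shift 1) = shift c := by
    ext
    · simp [shift, scaleY]
    · simp [shift, scaleY]
  exact congrArg (fun g => g p) (congrArg DFunLike.coe h)

private theorem l2_map_shift {S T : Type} [CommRing S] [CommRing T] (φ : S →+* T) (c : S)
    (p : S[X]) : map2 φ (shift c p) = shift (φ c) (p.map φ) := by
  have h : (map2 φ).comp (shift c) = (shift (φ c)).comp (mapRingHom φ) := by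
    ext
    · simp [shift, map2]
    · simp [shift, map2]
  exact congrArg (fun g => g p) (congrArg DFunLike.coe h)

private theorem l2_scaleY_C {S : Type} [CommRing S] (c : S) (p : S[X]) :
    scaleY c (C p) = C p := by
  simp [scaleY]

private theorem l2_shift_C {S : Type} [CommRing S] (c a : S) :
    shift c (C a) = C (C a) := by
  simp [shift]

/-- L2.  `R' = R_m`, `M, N` over `R'[X]` inverse to each other, `M f = f(0)`.  Put
`G = C(N) * shift 1 (M)`, `G' = shift 1 (N) * C(M)` over `R'[x][y]` (entrywise): `G G' = G' G = 1`,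
`G *ᵥ f(x + y) = f(x)`, and `G`, `G'` have `y`-constant coefficient `1`.  By `exists_scale` for all
entries (product of the `c`) there is `c ∉ m` such that `G(x, c y)`, `G'(x, c y)` come from matrices over
`R[x][y]`; these are inverse to each other and map `f(x + c y)` to `f(x)` since `R → R'` is
injective. -/
theorem loc_lemma [IsDomain R] (m : Ideal R) [m.IsPrime] (f : ι → R[X])
    (h : Eqv (fun i => (f i).map (algebraMap R (Localization.AtPrime m)))
      (fun i => C (((f i).map (algebraMap R (Localization.AtPrime m))).eval 0))) :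
    ∃ c : R, c ∉ m ∧ Eqv (fun i => shift c (f i)) (fun i => (C (f i) : R[X][X])) := by
  classical
  obtain ⟨M, N, hMN, hNM, hMf⟩ := h
  set φ := algebraMap R (Localization.AtPrime m) with hφ
  have hφinj : Function.Injective φ :=
    IsLocalization.injective _ m.primeCompl_le_nonZeroDivisors
  let sh : (Localization.AtPrime m)[X] →+* (Localization.AtPrime m)[X][X] := shift 1
  let Cc : (Localization.AtPrime m)[X] →+* (Localization.AtPrime m)[X][X] := C
  let G := N.map Cc * M.map sh
  let G' := N.map sh * M.map Cc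
  have hGG' : G * G' = 1 := by
    change (N.map Cc * M.map sh) * (N.map sh * M.map Cc) = 1
    rw [Matrix.mul_assoc, ← Matrix.mul_assoc (M.map sh), ← Matrix.map_mul, hMN,
      Matrix.map_one _ (map_zero sh) (map_one sh), Matrix.one_mul, ← Matrix.map_mul, hNM,
      Matrix.map_one _ (map_zero Cc) (map_one Cc)]
  have hG'G : G' * G = 1 := by
    change (N.map sh * M.map Cc) * (N.map Cc * M.map sh) = 1
    rw [Matrix.mul_assoc, ← Matrix.mul_assoc (M.map Cc), ← Matrix.map_mul, hMN,
      Matrix.map_one _ (map_zero Cc) (map_one Cc), Matrix.one_mul, ← Matrix.map_mul, hNM,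
      Matrix.map_one _ (map_zero sh) (map_one sh)]
  have hGf : G *ᵥ (fun i => sh ((f i).map φ)) = fun i => Cc ((f i).map φ) := by
    change (N.map Cc * M.map sh) *ᵥ _ = _
    rw [← mulVec_mulVec]
    have e1 : M.map sh *ᵥ (fun i => sh ((f i).map φ)) =
        fun i => Cc (C (((f i).map φ).eval 0)) := by
      funext i
      have := RingHom.map_mulVec sh M (fun i => (f i).map φ) i
      rw [hMf] at this
      change sh (C (((f i).map φ).eval 0)) = _ at this
      have e : sh (C (((f i).map φ).eval 0)) = Cc (C (((f i).map φ).eval 0)) := l2_shift_C 1 _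
      rw [← e, this]
      rfl
    rw [e1]
    have e2 : N *ᵥ (fun i => C (((f i).map φ).eval 0)) = fun i => (f i).map φ := by
      rw [← hMf, mulVec_mulVec, hNM, one_mulVec]
    funext i
    have := RingHom.map_mulVec Cc N (fun i => C (((f i).map φ).eval 0)) i
    rw [e2] at this
    rw [this]
    rfl
  have hG0 : ∀ i j, (G i j).coeff 0 = (1 : Matrix ι ι (Localization.AtPrime m)[X]) i j := by
    intro i j
    change ((N.map Cc * M.map sh) i j).coeff 0 = _
    rw [← hNM, Matrix.mul_apply, Matrix.mul_apply, finsetSum_coeff]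
    refine Finset.sum_congr rfl fun l _ => ?_
    change (C (N i l) * shift 1 (M l j)).coeff 0 = _
    rw [coeff_C_mul, l2_shift_coeff]
  have hG'0 : ∀ i j, (G' i j).coeff 0 = (1 : Matrix ι ι (Localization.AtPrime m)[X]) i j := by
    intro i j
    change ((N.map sh * M.map Cc) i j).coeff 0 = _
    rw [← hNM, Matrix.mul_apply, Matrix.mul_apply, finsetSum_coeff]
    refine Finset.sum_congr rfl fun l _ => ?_
    change (shift 1 (N i l) * C (M l j)).coeff 0 = _
    rw [coeff_mul_C, l2_shift_coeff]
  have hone : ∀ i j, ∃ q : R[X], q.map φ = (1 : Matrix ι ι (Localization.AtPrime m)[X]) i j := by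
    intro i j
    by_cases hij : i = j
    · subst hij
      exact ⟨1, by rw [Matrix.one_apply_eq, Polynomial.map_one]⟩
    · exact ⟨0, by rw [Matrix.one_apply_ne hij, Polynomial.map_zero]⟩
  choose c hc hcs using fun i j => exists_scale m (G i j) (by rw [hG0]; exact hone i j)
  choose c' hc' hcs' using fun i j => exists_scale m (G' i j) (by rw [hG'0]; exact hone i j)
  let d : R := (∏ ij : ι × ι, c ij.1 ij.2) * ∏ ij : ι × ι, c' ij.1 ij.2
  have hd : d ∉ m := by
    have hp : m.IsPrime := inferInstance
    intro hmem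
    rcases hp.mem_or_mem hmem with h1 | h1
    · obtain ⟨ij, -, h2⟩ := (hp.prod_mem_iff (s := Finset.univ)).1 h1
      exact hc _ _ h2
    · obtain ⟨ij, -, h2⟩ := (hp.prod_mem_iff (s := Finset.univ)).1 h1
      exact hc' _ _ h2
  have hQ : ∀ i j, ∃ Q : R[X][X], map2 φ Q = scaleY (φ d) (G i j) := by
    intro i j
    obtain ⟨a, ha⟩ : c i j ∣ d :=
      (Finset.dvd_prod_of_mem (fun ij : ι × ι => c ij.1 ij.2) (Finset.mem_univ (i, j))).mul_right _
    obtain ⟨Q, hQ⟩ := hcs i j a
    exact ⟨Q, by rw [hQ, ha]⟩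
  have hQ' : ∀ i j, ∃ Q : R[X][X], map2 φ Q = scaleY (φ d) (G' i j) := by
    intro i j
    obtain ⟨a, ha⟩ : c' i j ∣ d :=
      (Finset.dvd_prod_of_mem (fun ij : ι × ι => c' ij.1 ij.2) (Finset.mem_univ (i, j))).mul_left _
    obtain ⟨Q, hQ⟩ := hcs' i j a
    exact ⟨Q, by rw [hQ, ha]⟩
  choose Q hQ using hQ
  choose Q' hQ' using hQ'
  have hinj : Function.Injective (map2 φ) := by
    refine Polynomial.map_injective _ ?_
    exact Polynomial.map_injective _ hφinj
  have hQm : (Matrix.of Q).map (map2 φ) = G.map (scaleY (φ d)) := by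
    ext1 i j
    exact hQ i j
  have hQm' : (Matrix.of Q').map (map2 φ) = G'.map (scaleY (φ d)) := by
    ext1 i j
    exact hQ' i j
  have hmapinj : ∀ A B : Matrix ι ι R[X][X], A.map (map2 φ) = B.map (map2 φ) → A = B := by
    intro A B hAB
    ext1 i j
    exact hinj (congrFun (congrFun hAB i) j)
  refine ⟨d, hd, Matrix.of Q, Matrix.of Q', ?_, ?_, ?_⟩
  · apply hmapinj
    rw [Matrix.map_mul, hQm, hQm', ← Matrix.map_mul, hGG',
      Matrix.map_one _ (map_zero _) (map_one _), Matrix.map_one _ (map_zero _) (map_one _)]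
  · apply hmapinj
    rw [Matrix.map_mul, hQm, hQm', ← Matrix.map_mul, hG'G,
      Matrix.map_one _ (map_zero _) (map_one _), Matrix.map_one _ (map_zero _) (map_one _)]
  · funext i
    apply hinj
    have e1 := RingHom.map_mulVec (map2 φ) (Matrix.of Q) (fun i => shift d (f i)) i
    rw [e1, hQm]
    have e2 : (map2 φ ∘ fun i => shift d (f i)) =
        (scaleY (φ d)) ∘ (fun i => sh ((f i).map φ)) := by
      funext j
      change map2 φ (shift d (f j)) = scaleY (φ d) (shift 1 ((f j).map φ))
      rw [l2_map_shift, l2_scale_shift]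
    rw [e2]
    have e3 := RingHom.map_mulVec (scaleY (φ d)) G (fun i => sh ((f i).map φ)) i
    rw [← e3, hGf]
    change scaleY (φ d) (C ((f i).map φ)) = map2 φ (C (f i))
    rw [l2_scaleY_C]
    simp [map2]


/-- the homomorphism `x ↦ x + c' y`, `y ↦ y` of `R[x][y]` -/
noncomputable def J1_tau {R : Type} [CommRing R] (c' : R) : R[X][X] →+* R[X][X] :=
  Polynomial.eval₂RingHom (shift c') X

theorem J1_shift_C {R : Type} [CommRing R] (c r : R) : shift c (C r) = C (C r) := by
  simp [shift]

theorem J1_shift_X {R : Type} [CommRing R] (c : R) : shift c (X : R[X]) = C X + C (C c) * X := by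
  simp [shift]

theorem J1_tau_C {R : Type} [CommRing R] (c' : R) (p : R[X]) : J1_tau c' (C p) = shift c' p := by
  simp [J1_tau]

theorem J1_tau_X {R : Type} [CommRing R] (c' : R) : J1_tau c' (X : R[X][X]) = X := by
  simp [J1_tau]

theorem J1_comp {R : Type} [CommRing R] (c c' : R) (p : R[X]) :
    J1_tau c' (shift c p) = shift (c + c') p := by
  have h : (J1_tau c').comp (shift c) = shift (c + c') := by
    refine Polynomial.ringHom_ext (fun a => ?_) ?_
    · rw [RingHom.comp_apply, J1_shift_C, J1_tau_C, J1_shift_C, J1_shift_C]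
    · rw [RingHom.comp_apply, J1_shift_X, map_add, map_mul, J1_tau_C, J1_tau_C, J1_tau_X,
        J1_shift_X, J1_shift_C, J1_shift_X, C_add, C_add]
      ring
  exact congrArg (fun φ : R[X] →+* R[X][X] => φ p) h

/-- J1.  Apply the homomorphism `x ↦ x + c' y`, `y ↦ y` of `R[x][y]` to the first equivalence. -/
theorem eqv_shift_add (f : ι → R[X]) (c c' : R)
    (h : Eqv (fun i => shift c (f i)) (fun i => (C (f i) : R[X][X])))
    (h' : Eqv (fun i => shift c' (f i)) (fun i => (C (f i) : R[X][X]))) :
    Eqv (fun i => shift (c + c') (f i)) (fun i => (C (f i) : R[X][X])) := by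
  obtain ⟨M, N, hMN, hNM, hM⟩ := h
  obtain ⟨M', N', hMN', hNM', hM'⟩ := h'
  have e1 : M.map (J1_tau c') * N.map (J1_tau c') = 1 := by
    rw [← Matrix.map_mul, hMN, Matrix.map_one _ (map_zero _) (map_one _)]
  have e2 : N.map (J1_tau c') * M.map (J1_tau c') = 1 := by
    rw [← Matrix.map_mul, hNM, Matrix.map_one _ (map_zero _) (map_one _)]
  have e3 : M.map (J1_tau c') *ᵥ (fun i => shift (c + c') (f i)) = fun i => shift c' (f i) := by
    funext i
    have h1 := congrArg (J1_tau c') (congrFun hM i)
    rw [J1_tau_C] at h1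
    rw [← h1]
    simp only [Matrix.mulVec, dotProduct, Matrix.map_apply, map_sum, map_mul, J1_comp]
  refine ⟨M' * M.map (J1_tau c'), N.map (J1_tau c') * N', ?_, ?_, ?_⟩
  · rw [Matrix.mul_assoc, ← Matrix.mul_assoc (M.map (J1_tau c')), e1, Matrix.one_mul, hMN']
  · rw [Matrix.mul_assoc, ← Matrix.mul_assoc N', hNM', Matrix.one_mul, e2]
  · rw [← Matrix.mulVec_mulVec, e3, hM']

theorem J2_shift (a c : R) : (scaleY a).comp (shift c) = shift (a * c) := by
  refine Polynomial.ringHom_ext (fun r => ?_) ?_
  · simp only [RingHom.comp_apply, scaleY, shift, coe_eval₂RingHom, eval₂_C]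
  · simp only [RingHom.comp_apply, scaleY, shift, coe_eval₂RingHom, eval₂_X, eval₂_add, eval₂_mul,
      eval₂_C, C_mul]
    ring

theorem J2_C (a : R) (p : R[X]) : scaleY a (C p) = C p := by
  simp only [scaleY, coe_eval₂RingHom, eval₂_C]

/-- J2.  Apply `scaleY a`. -/
theorem eqv_shift_mul (f : ι → R[X]) (a c : R)
    (h : Eqv (fun i => shift c (f i)) (fun i => (C (f i) : R[X][X]))) :
    Eqv (fun i => shift (a * c) (f i)) (fun i => (C (f i) : R[X][X])) := by
  have h1 := Eqv.map (scaleY a) h
  have e1 : (fun i => scaleY a (shift c (f i))) = fun i => shift (a * c) (f i) := by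
    funext i
    rw [← J2_shift a c]
    rfl
  have e2 : (fun i => scaleY a (C (f i))) = fun i => (C (f i) : R[X][X]) := by
    funext i
    exact J2_C a (f i)
  rw [e1, e2] at h1
  exact h1

theorem J3_comp : (Polynomial.mapRingHom (Polynomial.evalRingHom (0 : R))).comp (shift (1 : R)) =
    RingHom.id R[X] := by
  refine Polynomial.ringHom_ext' ?_ ?_
  · ext r
    simp [shift]
  · simp [shift]

/-- J3.  Apply `R[x][y] → R[X]`, `x ↦ 0`, `y ↦ X`. -/
theorem eqv_of_shift_one (f : ι → R[X])
    (h : Eqv (fun i => shift 1 (f i)) (fun i => (C (f i) : R[X][X]))) :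
    Eqv f (fun i => C ((f i).eval 0)) := by
  have h1 := h.map (Polynomial.mapRingHom (Polynomial.evalRingHom (0 : R)))
  have h2 : (fun i => Polynomial.mapRingHom (Polynomial.evalRingHom (0 : R)) (shift 1 (f i))) =
      f := by
    funext i
    exact congrArg (fun φ : R[X] →+* R[X] => φ (f i)) J3_comp
  have h3 : (fun i => Polynomial.mapRingHom (Polynomial.evalRingHom (0 : R)) (C (f i))) =
      fun i => C ((f i).eval 0) := by
    funext i
    simp
  rw [h2, h3] at h1
  exact h1

theorem GLOB_shift_zero (p : R[X]) : shift 0 p = (C p : R[X][X]) := by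
  have h : (shift (0 : R) : R[X] →+* R[X][X]) = (C : R[X] →+* R[X][X]) := by
    refine Polynomial.ringHom_ext (fun a => ?_) ?_
    · simp [shift]
    · simp [shift]
  rw [h]

/-- the ideal of all `c` with `f(x + c y) ~ f(x)` -/
def GLOB_ideal (f : ι → R[X]) : Ideal R where
  carrier := {c | Eqv (fun i => shift c (f i)) (fun i => (C (f i) : R[X][X]))}
  add_mem' := fun {a b} ha hb => eqv_shift_add f a b ha hb
  zero_mem' := by
    have : (fun i => shift (0 : R) (f i)) = fun i => (C (f i) : R[X][X]) :=
      funext fun i => GLOB_shift_zero (f i)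
    change Eqv (fun i => shift (0 : R) (f i)) (fun i => (C (f i) : R[X][X]))
    rw [this]
    exact Eqv.refl _
  smul_mem' := fun a c hc => eqv_shift_mul f a c hc

/-- GLOB.  The set `J` of all `c` with `f(x + c y) ~ f(x)` is an ideal (`eqv_shift_add`,
`eqv_shift_mul`; `0 ∈ J`); if `J ≠ R`, `J ⊆ m` maximal; over the local ring `R_m`:
`f ~ e_i ~ f(0)` by `horrocks_local` (also evaluated at `0`), so `loc_lemma` gives `c ∈ J`, `c ∉ m`.
So `1 ∈ J`: `eqv_of_shift_one`. -/
theorem glob [IsDomain R] (f : ι → R[X]) (hf : Uni f) (i0 : ι) (h : (f i0).Monic) :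
    Eqv f (fun i => C ((f i).eval 0)) := by
  have htop : GLOB_ideal f = ⊤ := by
    by_contra hne
    obtain ⟨m, hm, hle⟩ := Ideal.exists_le_maximal _ hne
    have hp : m.IsPrime := hm.isPrime
    set φ := algebraMap R (Localization.AtPrime m) with hφ
    set g : ι → (Localization.AtPrime m)[X] := fun i => (f i).map φ with hg
    have hgu : Uni g := Uni.map (Polynomial.mapRingHom φ) hf
    have hgm : (g i0).Monic := h.map φ
    have h1 : Eqv g (Pi.single i0 1) := horrocks_local g hgu i0 hgm i0
    have h2 := Eqv.map ((C : Localization.AtPrime m →+* (Localization.AtPrime m)[X]).comp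
      (Polynomial.evalRingHom (0 : Localization.AtPrime m))) h1
    have h3 : (fun i => ((C : Localization.AtPrime m →+* (Localization.AtPrime m)[X]).comp
      (Polynomial.evalRingHom (0 : Localization.AtPrime m)))
        ((Pi.single i0 1 : ι → (Localization.AtPrime m)[X]) i)) = Pi.single i0 1 := by
      funext i
      by_cases hi : i = i0
      · subst hi
        simp
      · simp [hi]
    rw [h3] at h2
    have h4 : Eqv g (fun i => C ((g i).eval 0)) := h1.trans h2.symm
    obtain ⟨c, hc, hcE⟩ := loc_lemma m f h4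
    exact hc (hle hcE)
  have h1 : (1 : R) ∈ GLOB_ideal f := by
    rw [htop]
    trivial
  exact eqv_of_shift_one f h1

/-- M1.  Mathlib's `NoetherNormalization` (private lemmas `T`, `T_leadingcoeff_isUnit`; copy the
proofs without local notations), or a linear change of variables. -/
theorem exists_monic {k : Type} [Field k] (r : ℕ) (p : MvPolynomial (Fin (r + 1)) k) (hp : p ≠ 0) :
    ∃ T : MvPolynomial (Fin (r + 1)) k ≃ₐ[k] MvPolynomial (Fin (r + 1)) k,
      IsUnit (MvPolynomial.finSuccEquiv k r (T p)).leadingCoeff := by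
  exact M1_exists_monic r p hp

private lemma QS_ne {A : Type} [CommRing A] [Nontrivial A] (f : ι → A) (hf : Uni f) :
    ∃ i, f i ≠ 0 := by
  by_contra hcon
  push Not at hcon
  obtain ⟨g, hg⟩ := hf
  simp only [hcon, mul_zero, Finset.sum_const_zero] at hg
  exact zero_ne_one hg

private lemma QS_step {A : Type} [CommRing A] [IsDomain A] (F : ι → A[X]) (hF : Uni F) (i : ι)
    (hl : IsUnit (F i).leadingCoeff) :
    ∃ G : ι → A, Uni G ∧ Eqv F (fun l => (C (G l) : A[X])) := by
  obtain ⟨v, hv⟩ := hl
  have hcu : IsUnit (C (((v⁻¹ : Aˣ) : A)) : A[X]) := (Units.isUnit (v⁻¹)).map C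
  have hFF := eqv_smul F i (C (((v⁻¹ : Aˣ) : A))) hcu
  have hmon : ((Function.update F i (C (((v⁻¹ : Aˣ) : A)) * F i)) i).Monic := by
    rw [Function.update_self]
    apply Polynomial.monic_C_mul_of_mul_leadingCoeff_eq_one
    rw [← hv]
    exact Units.inv_mul v
  have hF' := hF.of_eqv hFF
  have hgl := glob _ hF' i hmon
  exact ⟨_, hF'.map (Polynomial.evalRingHom 0), hFF.trans hgl⟩

private lemma QS_single {A B : Type} [CommRing A] [CommRing B] (φ : A →+* B) (j : ι) :
    (fun l => φ ((Pi.single j 1 : ι → A) l)) = (Pi.single j 1 : ι → B) := by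
  funext l
  by_cases hl : l = j
  · subst hl
    simp only [Pi.single_eq_same, map_one]
  · simp only [Pi.single_eq_of_ne hl, map_zero]

private lemma QS_iso {A B : Type} [CommRing A] [CommRing B] (φ : A ≃+* B) (f : ι → A) (j : ι)
    (h : Eqv (fun l => φ (f l)) (Pi.single j 1)) : Eqv f (Pi.single j 1) := by
  have h3 := h.map (φ.symm : B →+* A)
  rw [QS_single] at h3
  have h4 : (fun i => (φ.symm : B →+* A) (φ (f i))) = f := by
    funext l
    exact φ.symm_apply_apply (f l)
  rwa [h4] at h3

/-- QS.  Induction on `r`.  `r = 0`: some `f i` is a nonzero constant (`eqv_single_of_isUnit`).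
`r + 1`: some `f i ≠ 0`; `T` as in `exists_monic`; `F j = finSuccEquiv (T (f j))`; make `F i` monic
(`eqv_smul`); `F ~ F(0)` by `glob`; `F(0)` is unimodular, so `~ e_j` by induction; go back with
`Eqv.map` of the inverse isomorphism. -/
theorem quillen_suslin {k : Type} [Field k] (r : ℕ) (f : ι → MvPolynomial (Fin r) k) (hf : Uni f)
    (j : ι) : Eqv f (Pi.single j 1) := by
  induction r generalizing j with
  | zero =>
    obtain ⟨i, hi⟩ := QS_ne f hf
    have hu : IsUnit (f i) := by
      have h1 : IsUnit ((MvPolynomial.isEmptyAlgEquiv k (Fin 0)) (f i)) := by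
        rw [isUnit_iff_ne_zero]
        intro h
        exact hi ((map_eq_zero_iff _ (MvPolynomial.isEmptyAlgEquiv k (Fin 0)).injective).1 h)
      have h2 := h1.map (MvPolynomial.isEmptyAlgEquiv k (Fin 0)).symm
      rwa [AlgEquiv.symm_apply_apply] at h2
    exact eqv_single_of_isUnit f i j hu
  | succ r ih =>
    obtain ⟨i, hi⟩ := QS_ne f hf
    obtain ⟨T, hT⟩ := exists_monic r (f i) hi
    refine QS_iso (T.trans (MvPolynomial.finSuccEquiv k r)).toRingEquiv f j ?_
    have hF : Uni (fun l => (T.trans (MvPolynomial.finSuccEquiv k r)).toRingEquiv (f l)) :=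
      hf.map ((T.trans (MvPolynomial.finSuccEquiv k r)).toRingEquiv :
        MvPolynomial (Fin (r + 1)) k →+* (MvPolynomial (Fin r) k)[X])
    obtain ⟨G, hG, hE⟩ := QS_step _ hF i hT
    have hih := (ih G hG j).map (C : MvPolynomial (Fin r) k →+* (MvPolynomial (Fin r) k)[X])
    rw [QS_single] at hih
    exact hE.trans hih

end Vale.Agent.P295Q
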