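import Vale.Agent.P295Q.QDefs

namespace Vale.Agent.P295Q.ColPf

open Matrix Polynomial

variable {R ι : Type} [CommRing R] [Fintype ι] [DecidableEq ι]

theorem eqv_col (f : ι → R) (i : ι) (c : ι → R) :
    Eqv f (fun j => if j = i then f i else f j + c j * f i) := by
  set v : ι → R := fun j => if j = i then 0 else c j with hv
  have hvi : v i = 0 := by simp [hv]
  have hsq : vecMulVec v (Pi.single i 1) * vecMulVec v (Pi.single i 1) = 0 := by
    ext a b
    rw [Matrix.mul_apply]
    simp only [vecMulVec_apply]
    refine Finset.sum_eq_zero fun k _ => ?_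
    by_cases hk : k = i
    · subst hk
      rw [hvi]
      ring
    · rw [Pi.single_eq_of_ne hk]
      ring
  refine ⟨1 + vecMulVec v (Pi.single i 1), 1 - vecMulVec v (Pi.single i 1), ?_, ?_, ?_⟩
  · rw [add_mul, one_mul, mul_sub, mul_one, hsq, sub_zero]
    abel
  · rw [sub_mul, one_mul, mul_add, mul_one, hsq, add_zero]
    abel
  · funext j
    rw [add_mulVec, one_mulVec]
    have h1 : (vecMulVec v (Pi.single i (1 : R)) *ᵥ f) j = v j * f i := by
      simp only [mulVec, dotProduct, vecMulVec_apply]
      rw [Finset.sum_eq_single i]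
      · rw [Pi.single_eq_same, mul_one]
      · intro b _ hb
        rw [Pi.single_eq_of_ne hb]
        ring
      · intro h
        exact absurd (Finset.mem_univ i) h
    rw [Pi.add_apply, h1]
    by_cases hj : j = i
    · subst hj
      rw [hvi]
      simp
    · simp [hv, hj]

end Vale.Agent.P295Q.ColPf
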