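import Vale.Agent.P295Q.QDefs
import Vale.Agent.P295Q.ColPf

namespace Vale.Agent.P295Q

open Matrix Polynomial

variable {R S ι : Type} [CommRing R] [CommRing S] [Fintype ι] [DecidableEq ι]

theorem Eqv.refl (f : ι → R) : Eqv f f := ⟨1, 1, by rw [mul_one], by rw [mul_one], one_mulVec f⟩

theorem Eqv.symm {f g : ι → R} (h : Eqv f g) : Eqv g f := by
  obtain ⟨M, N, h1, h2, h3⟩ := h
  exact ⟨N, M, h2, h1, by rw [← h3, mulVec_mulVec, h2, one_mulVec]⟩

theorem Eqv.trans {f g h : ι → R} (h1 : Eqv f g) (h2 : Eqv g h) : Eqv f h := by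
  obtain ⟨M, N, a1, a2, a3⟩ := h1
  obtain ⟨M', N', b1, b2, b3⟩ := h2
  refine ⟨M' * M, N * N', ?_, ?_, ?_⟩
  · rw [Matrix.mul_assoc, ← Matrix.mul_assoc M, a1, Matrix.one_mul, b1]
  · rw [Matrix.mul_assoc, ← Matrix.mul_assoc N', b2, Matrix.one_mul, a2]
  · rw [← mulVec_mulVec, a3, b3]

/-- E1. -/
theorem Eqv.map (φ : R →+* S) {f g : ι → R} (h : Eqv f g) :
    Eqv (fun i => φ (f i)) (fun i => φ (g i)) := by
  obtain ⟨M, N, h1, h2, h3⟩ := h
  refine ⟨M.map φ, N.map φ, ?_, ?_, ?_⟩
  · rw [← Matrix.map_mul, h1, Matrix.map_one φ (map_zero φ) (map_one φ)]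
  · rw [← Matrix.map_mul, h2, Matrix.map_one φ (map_zero φ) (map_one φ)]
  · funext i
    rw [← h3]
    exact (RingHom.map_mulVec φ M f i).symm

theorem Uni.map (φ : R →+* S) {f : ι → R} (h : Uni f) : Uni (fun i => φ (f i)) := by
  obtain ⟨g, hg⟩ := h
  exact ⟨fun i => φ (g i), by simp only [← map_mul, ← map_sum, hg, map_one]⟩

/-- E1b.  `∑ g_i f_i = g ⬝ᵥ (N *ᵥ f')`, `f' = M f`. -/
theorem Uni.of_eqv {f g : ι → R} (hf : Uni f) (h : Eqv f g) : Uni g := by
  obtain ⟨w, hw⟩ := hf
  obtain ⟨M, N, h1, h2, h3⟩ := h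
  refine ⟨w ᵥ* N, ?_⟩
  change (w ᵥ* N) ⬝ᵥ g = 1
  rw [← dotProduct_mulVec, ← h3, mulVec_mulVec, h2, one_mulVec]
  exact hw

/-- E2.  Transvection (`Matrix.transvection i j c`). -/
theorem eqv_add (f : ι → R) {i j : ι} (hij : i ≠ j) (c : R) :
    Eqv f (Function.update f i (f i + c * f j)) := by
  refine ⟨Matrix.transvection i j c, Matrix.transvection i j (-c), ?_, ?_, ?_⟩
  · rw [Matrix.transvection_mul_transvection_same _ _ hij, add_neg_cancel,
      Matrix.transvection_zero]
  · rw [Matrix.transvection_mul_transvection_same _ _ hij, neg_add_cancel,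
      Matrix.transvection_zero]
  · funext k
    rw [Matrix.transvection, Matrix.add_mulVec, Matrix.one_mulVec, Matrix.single_mulVec]
    by_cases hk : k = i
    · subst hk
      simp
    · simp [Function.update_of_ne hk]

/-- E3.  Permutation matrices. -/
theorem eqv_perm (f : ι → R) (e : Equiv.Perm ι) : Eqv f (fun i => f (e i)) := by
  refine ⟨e.permMatrix R, (e⁻¹).permMatrix R, ?_, ?_, ?_⟩
  · rw [← Matrix.permMatrix_mul, inv_mul_cancel, Matrix.permMatrix_one]
  · rw [← Matrix.permMatrix_mul, mul_inv_cancel, Matrix.permMatrix_one]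
  · rw [Matrix.permMatrix_mulVec]
    rfl

/-- E4.  Diagonal matrix. -/
theorem eqv_smul (f : ι → R) (i : ι) (u : R) (hu : IsUnit u) :
    Eqv f (Function.update f i (u * f i)) := by
  obtain ⟨v, rfl⟩ := hu
  refine ⟨Matrix.diagonal (Function.update 1 i (v : R)),
    Matrix.diagonal (Function.update 1 i ((v⁻¹ : Rˣ) : R)), ?_, ?_, ?_⟩
  · rw [Matrix.diagonal_mul_diagonal, ← Matrix.diagonal_one]
    congr 1
    funext k
    by_cases hk : k = i
    · subst hk
      simp
    · simp [Function.update_of_ne hk]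
  · rw [Matrix.diagonal_mul_diagonal, ← Matrix.diagonal_one]
    congr 1
    funext k
    by_cases hk : k = i
    · subst hk
      simp
    · simp [Function.update_of_ne hk]
  · funext k
    rw [Matrix.mulVec_diagonal]
    by_cases hk : k = i
    · subst hk
      simp
    · simp [Function.update_of_ne hk]

/-- E6.  Adding multiples of `f i` to all other components: `M = 1 +` column `i`. -/
theorem eqv_col (f : ι → R) (i : ι) (c : ι → R) :
    Eqv f (fun j => if j = i then f i else f j + c j * f i) := by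
  exact ColPf.eqv_col f i c

/-- E5.  From `eqv_smul`, `eqv_col`, `eqv_perm`. -/
theorem eqv_single_of_isUnit (f : ι → R) (i j : ι) (hu : IsUnit (f i)) :
    Eqv f (Pi.single j 1) := by
  obtain ⟨v, hv⟩ := hu
  have h1 := eqv_smul f i ((v⁻¹ : Rˣ) : R) (Units.isUnit _)
  rw [← hv, Units.inv_mul] at h1
  have h2 := eqv_col (Function.update f i 1) i (fun k => - Function.update f i 1 k)
  have h3 : (fun k => if k = i then Function.update f i 1 i
      else Function.update f i 1 k + (- Function.update f i 1 k) * Function.update f i 1 i) = Pi.single i (1 : R) := by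
    funext k
    by_cases hk : k = i
    · subst hk
      simp
    · rw [if_neg hk, Pi.single_eq_of_ne hk, Function.update_self]
      ring
  rw [h3] at h2
  have h4 := eqv_perm (Pi.single i (1 : R)) (Equiv.swap i j)
  have h5 : (fun k => (Pi.single i (1 : R) : ι → R) (Equiv.swap i j k)) = Pi.single j (1 : R) := by
    funext k
    by_cases hk : k = j
    · subst hk
      rw [Equiv.swap_apply_right, Pi.single_eq_same, Pi.single_eq_same]
    · rw [Pi.single_eq_of_ne hk, Pi.single_eq_of_ne]
      intro h6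
      apply hk
      have h7 := congrArg (Equiv.swap i j) h6
      rwa [Equiv.swap_apply_self, Equiv.swap_apply_left] at h7
  rw [h5] at h4
  exact (h1.trans h2).trans h4

private theorem E7_pair (h2 : Fintype.card ι = 2) (j : ι) :
    ∃ i, i ≠ j ∧ (Finset.univ : Finset ι) = {j, i} := by
  obtain ⟨x, y, hxy, hu⟩ := Finset.card_eq_two.1 (Finset.card_univ.trans h2)
  have hj : j ∈ ({x, y} : Finset ι) := hu ▸ Finset.mem_univ j
  rw [Finset.mem_insert, Finset.mem_singleton] at hj
  rcases hj with rfl | rfl
  · exact ⟨y, hxy.symm, hu⟩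
  · exact ⟨x, hxy, by rw [hu, Finset.pair_comm]⟩

/-- E7.  Two components: the matrix with rows `(g i, g j)` and `(-f j, f i)`; then `eqv_perm`. -/
theorem eqv_single_of_card_two (h2 : Fintype.card ι = 2) (f : ι → R) (hf : Uni f) (j : ι) :
    Eqv f (Pi.single j 1) := by
  obtain ⟨i, hij, hu⟩ := E7_pair h2 j
  obtain ⟨g, hg⟩ := hf
  have hs : ∀ F : ι → R, ∑ c, F c = F j + F i := fun F => by
    rw [hu, Finset.sum_pair hij.symm]
  have hc : ∀ a : ι, a = j ∨ a = i := fun a => by
    have : a ∈ ({j, i} : Finset ι) := hu ▸ Finset.mem_univ a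
    rwa [Finset.mem_insert, Finset.mem_singleton] at this
  rw [hs] at hg
  let M : Matrix ι ι R := fun a b => if a = j then g b else if b = j then -f i else f j
  let N : Matrix ι ι R := fun a b => if b = j then f a else if a = j then -g i else g j
  have mj : ∀ b, M j b = g b := fun b => if_pos rfl
  have mij : M i j = -f i := by
    show (if i = j then g j else if j = j then -f i else f j) = _
    rw [if_neg hij, if_pos rfl]
  have mii : M i i = f j := by
    show (if i = j then g i else if i = j then -f i else f j) = _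
    rw [if_neg hij, if_neg hij]
  have nj : ∀ a, N a j = f a := fun a => if_pos rfl
  have nji : N j i = -g i := by
    show (if i = j then f j else if j = j then -g i else g j) = _
    rw [if_neg hij, if_pos rfl]
  have nii : N i i = g j := by
    show (if i = j then f i else if i = j then -g i else g j) = _
    rw [if_neg hij, if_neg hij]
  refine ⟨M, N, ?_, ?_, ?_⟩
  · ext a b
    rw [Matrix.mul_apply, hs]
    rcases hc a with rfl | rfl
    · rcases hc b with rfl | rfl
      · rw [mj, mj, nj, nj, Matrix.one_apply_eq, hg]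
      · rw [mj, mj, nji, nii, Matrix.one_apply_ne hij.symm]
        ring
    · rcases hc b with rfl | rfl
      · rw [mij, mii, nj, nj, Matrix.one_apply_ne hij]
        ring
      · rw [mij, mii, nji, nii, Matrix.one_apply_eq, ← hg]
        ring
  · ext a b
    rw [Matrix.mul_apply, hs]
    rcases hc a with rfl | rfl
    · rcases hc b with rfl | rfl
      · rw [nj, nji, mj, mij, Matrix.one_apply_eq, ← hg]
        ring
      · rw [nj, nji, mj, mii, Matrix.one_apply_ne hij.symm]
        ring
    · rcases hc b with rfl | rfl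
      · rw [nj, nii, mj, mij, Matrix.one_apply_ne hij]
        ring
      · rw [nj, nii, mj, mii, Matrix.one_apply_eq, ← hg]
        ring
  · funext a
    show ∑ c, M a c * f c = _
    rw [hs]
    rcases hc a with rfl | rfl
    · rw [mj, mj, hg, Pi.single_eq_same]
    · rw [mij, mii, Pi.single_eq_of_ne hij]
      ring

end Vale.Agent.P295Q
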