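import Vale.Agent.P295Q.Elem

namespace Vale.Agent.P295Q

open Matrix Polynomial

variable {R ι : Type} [CommRing R] [Fintype ι] [DecidableEq ι]

/-- the ideal of the coefficients of `x^(d-1)` -/
def H1_ideal (p q : R[X]) : Ideal R where
  carrier := {c | ∃ u v : R[X], (∀ m, p.natDegree ≤ m → (u * p + v * q).coeff m = 0) ∧
      (u * p + v * q).coeff (p.natDegree - 1) = c}
  add_mem' := by
    rintro a b ⟨u, v, h1, h2⟩ ⟨u', v', h1', h2'⟩
    have e : (u + u') * p + (v + v') * q = (u * p + v * q) + (u' * p + v' * q) := by ring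
    refine ⟨u + u', v + v', fun m hm => ?_, ?_⟩
    · rw [e, coeff_add, h1 m hm, h1' m hm, add_zero]
    · rw [e, coeff_add, h2, h2']
  zero_mem' := ⟨0, 0, fun m _ => by simp, by simp⟩
  smul_mem' := by
    rintro c a ⟨u, v, h1, h2⟩
    have e : (C c * u) * p + (C c * v) * q = C c * (u * p + v * q) := by ring
    refine ⟨C c * u, C c * v, fun m hm => ?_, ?_⟩
    · rw [e, coeff_C_mul, h1 m hm, mul_zero]
    · rw [e, coeff_C_mul, h2, smul_eq_mul]

/-- the sequence `q_t` -/
noncomputable def H1_seq (p q : R[X]) : ℕ → R[X]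
  | 0 => q
  | t + 1 => X * H1_seq p q t - C ((H1_seq p q t).coeff (p.natDegree - 1)) * p

theorem H1_mem (p q : R[X]) (hp : p.Monic) (hd : 0 < p.natDegree)
    (hq : ∀ m, p.natDegree ≤ m → q.coeff m = 0) (t : ℕ) :
    (∃ u v : R[X], H1_seq p q t = u * p + v * q) ∧
      (∀ m, p.natDegree ≤ m → (H1_seq p q t).coeff m = 0) ∧
      ∀ j, t ≤ j → j < p.natDegree → (H1_seq p q t).coeff j - q.coeff (j - t) ∈ H1_ideal p q := by
  induction t with
  | zero =>
    refine ⟨⟨0, 1, by simp [H1_seq]⟩, fun m hm => hq m hm, fun j _ _ => ?_⟩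
    simp [H1_seq]
  | succ t ih =>
    obtain ⟨⟨u, v, huv⟩, h1, h2⟩ := ih
    have hc : (H1_seq p q t).coeff (p.natDegree - 1) ∈ H1_ideal p q :=
      ⟨u, v, fun m hm => by rw [← huv]; exact h1 m hm, by rw [← huv]⟩
    refine ⟨⟨X * u - C ((H1_seq p q t).coeff (p.natDegree - 1)), X * v, ?_⟩, ?_, ?_⟩
    · rw [H1_seq]
      nth_rewrite 1 [huv]
      ring
    · intro m hm
      obtain ⟨m', rfl⟩ : ∃ m', m = m' + 1 := ⟨m - 1, by omega⟩
      rw [H1_seq, coeff_sub, coeff_X_mul, coeff_C_mul]
      rcases Nat.eq_or_lt_of_le hm with h | h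
      · rw [← h, show m' = p.natDegree - 1 by omega, hp.coeff_natDegree]
        ring
      · rw [h1 m' (by omega), coeff_eq_zero_of_natDegree_lt h]
        ring
    · intro j hj hjd
      obtain ⟨j', rfl⟩ : ∃ j', j = j' + 1 := ⟨j - 1, by omega⟩
      rw [H1_seq, coeff_sub, coeff_X_mul, coeff_C_mul]
      have h3 := h2 j' (by omega) (by omega)
      have h4 := (H1_ideal p q).mul_mem_right (p.coeff (j' + 1)) hc
      have h5 := (H1_ideal p q).sub_mem h3 h4
      rw [show j' + 1 - (t + 1) = j' - t by omega]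
      have e : (H1_seq p q t).coeff j' - (H1_seq p q t).coeff (p.natDegree - 1) *
          p.coeff (j' + 1) - q.coeff (j' - t) = (H1_seq p q t).coeff j' - q.coeff (j' - t) -
          (H1_seq p q t).coeff (p.natDegree - 1) * p.coeff (j' + 1) := by ring
      rw [e]
      exact h5

/-- H1.  `d = natDegree p`.  The set `I` of the coefficients of `x^(d-1)` of the elements of degree
`< d` of the ideal `(p, q)` is an ideal of `R`.  It contains all coefficients of `q`: put `q_0 = q`,
`q_(t+1) = X q_t - (coeff_(d-1) q_t) p`, `c_t = coeff_(d-1) q_t ∈ I`; then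
`coeff_(j+1) q_(t+1) = coeff_j q_t - c_t coeff_(j+1) p`, so `coeff_(d-1) q_t ≡ coeff_(d-1-t) q` modulo
`I`.  A unit coefficient gives `1 ∈ I`. -/
theorem exists_lead_one (p q : R[X]) (hp : p.Monic) (hd : 0 < p.natDegree)
    (hq : q.degree < p.degree) (j : ℕ) (hj : IsUnit (q.coeff j)) :
    ∃ u v : R[X], (u * p + v * q).degree < p.degree ∧
      (u * p + v * q).coeff (p.natDegree - 1) = 1 := by
  have hp0 : p ≠ 0 := by
    rintro rfl
    simp at hd
  have hR : Nontrivial R := nontrivial_iff.1 ⟨p, 0, hp0⟩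
  have hdeg : p.degree = (p.natDegree : WithBot ℕ) := degree_eq_natDegree hp0
  rw [hdeg, degree_lt_iff_coeff_zero] at hq
  have hjd : j < p.natDegree := by
    by_contra h
    rw [hq j (not_lt.1 h)] at hj
    exact not_isUnit_zero hj
  have hmem := H1_mem p q hp hd hq (p.natDegree - 1 - j)
  obtain ⟨⟨u, v, huv⟩, h1, h2⟩ := hmem
  have hc : (H1_seq p q (p.natDegree - 1 - j)).coeff (p.natDegree - 1) ∈ H1_ideal p q :=
    ⟨u, v, fun m hm => by rw [← huv]; exact h1 m hm, by rw [← huv]⟩
  have h3 := h2 (p.natDegree - 1) (by omega) (by omega)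
  rw [show p.natDegree - 1 - (p.natDegree - 1 - j) = j by omega] at h3
  have h4 := (H1_ideal p q).sub_mem hc h3
  rw [sub_sub_cancel] at h4
  have h5 : H1_ideal p q = ⊤ := Ideal.eq_top_of_isUnit_mem _ h4 hj
  have h6 : (1 : R) ∈ H1_ideal p q := by
    rw [h5]
    exact Submodule.mem_top
  obtain ⟨u, v, h7, h8⟩ := h6
  refine ⟨u, v, ?_, h8⟩
  rw [hdeg, degree_lt_iff_coeff_zero]
  exact h7

/-- H2.  Otherwise all coefficients of the `f j`, `j ≠ i0`, are in the maximal ideal and modulo it
`g_i0 f_i0 = 1`, but `f_i0` is monic of positive degree. -/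
theorem exists_unit_coeff [IsLocalRing R] (f : ι → R[X]) (hf : Uni f) (i0 : ι)
    (h : (f i0).Monic) (hd : 0 < (f i0).natDegree) :
    ∃ j, j ≠ i0 ∧ ∃ k, IsUnit ((f j).coeff k) := by
  by_contra hcon
  push Not at hcon
  obtain ⟨g, hg⟩ := hf
  have h0 : ∀ j, j ≠ i0 → (f j).map (IsLocalRing.residue R) = 0 := by
    intro j hj
    ext k
    rw [coeff_map, coeff_zero, IsLocalRing.residue_eq_zero_iff, IsLocalRing.mem_maximalIdeal]
    exact hcon j hj k
  have h1 : (g i0).map (IsLocalRing.residue R) * (f i0).map (IsLocalRing.residue R) = 1 := by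
    have h2 := congrArg (Polynomial.map (IsLocalRing.residue R)) hg
    rw [Polynomial.map_sum, Polynomial.map_one, Finset.sum_eq_single i0] at h2
    · rw [← h2, Polynomial.map_mul]
    · intro j _ hj
      rw [Polynomial.map_mul, h0 j hj, mul_zero]
    · intro hn
      exact absurd (Finset.mem_univ i0) hn
  have h3 : IsUnit ((f i0).map (IsLocalRing.residue R)) :=
    IsUnit.of_mul_eq_one_right _ h1
  have h4 := natDegree_eq_zero_of_isUnit h3
  rw [h.natDegree_map] at h4
  omega

/-- H3a.  One step for at least three components.  First reduce the `f j` modulo `f i0`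
(`eqv_col` with `c j = -(f j /ₘ f i0)`), then `exists_unit_coeff`, `exists_lead_one`, and add
`(1 - coeff_(d-1) f_k) (u f_i0 + v f_j)` to `f_k`, `k ≠ i0, j` (two `eqv_add`). -/
theorem horrocks_step [IsLocalRing R] (h3 : 3 ≤ Fintype.card ι) (f : ι → R[X]) (hf : Uni f)
    (i0 : ι) (h : (f i0).Monic) (hd : 0 < (f i0).natDegree) :
    ∃ (g : ι → R[X]) (k : ι), Eqv f g ∧ (g k).Monic ∧ (g k).natDegree < (f i0).natDegree := by
  have e1 := eqv_col f i0 (fun j => -(f j /ₘ f i0))
  have hf1 := Uni.of_eqv hf e1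
  have hred : ∀ j, j ≠ i0 → f j + -(f j /ₘ f i0) * f i0 = f j %ₘ f i0 := by
    intro j _
    have := modByMonic_add_div (f j) (f i0)
    linear_combination -this
  have hf1eq : (fun j => if j = i0 then f i0 else f j + -(f j /ₘ f i0) * f i0) =
      fun j => if j = i0 then f i0 else f j %ₘ f i0 := by
    funext j
    by_cases hj : j = i0
    · rw [if_pos hj, if_pos hj]
    · rw [if_neg hj, if_neg hj, hred j hj]
  rw [hf1eq] at e1 hf1
  obtain ⟨f1, hf1def⟩ : ∃ f1 : ι → R[X], f1 = fun j => if j = i0 then f i0 else f j %ₘ f i0 :=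
    ⟨_, rfl⟩
  rw [← hf1def] at e1 hf1
  have hi0 : f1 i0 = f i0 := by rw [hf1def]; exact if_pos rfl
  have hdeg : ∀ j, j ≠ i0 → (f1 j).degree < (f i0).degree := by
    intro j hj
    rw [hf1def]
    show (if j = i0 then f i0 else f j %ₘ f i0).degree < _
    rw [if_neg hj]
    exact degree_modByMonic_lt _ h
  obtain ⟨j, hji, k0, hk0⟩ := exists_unit_coeff f1 hf1 i0 (by rw [hi0]; exact h)
    (by rw [hi0]; exact hd)
  obtain ⟨u, v, huv1, huv2⟩ := exists_lead_one (f i0) (f1 j) h hd (hdeg j hji) k0 hk0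
  have hk : ∃ k, k ≠ i0 ∧ k ≠ j := by
    by_contra hc
    push Not at hc
    have h1 : (Finset.univ : Finset ι) ⊆ {i0, j} := by
      intro x _
      rw [Finset.mem_insert, Finset.mem_singleton]
      by_cases hx : x = i0
      · exact Or.inl hx
      · exact Or.inr (hc x hx)
    have h2 := (Finset.card_le_card h1).trans Finset.card_le_two
    rw [Finset.card_univ] at h2
    omega
  obtain ⟨k, hki, hkj⟩ := hk
  obtain ⟨a, ha⟩ : ∃ a : R[X], a = C (1 - (f1 k).coeff ((f i0).natDegree - 1)) := ⟨_, rfl⟩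
  have e2 := eqv_add f1 hki (a * u)
  obtain ⟨f2, hf2⟩ : ∃ f2 : ι → R[X], f2 = Function.update f1 k (f1 k + a * u * f1 i0) := ⟨_, rfl⟩
  rw [← hf2] at e2
  have hf2k : f2 k = f1 k + a * u * f i0 := by
    rw [hf2, Function.update_self, hi0]
  have hf2j : f2 j = f1 j := by
    rw [hf2, Function.update_of_ne hkj.symm]
  have e3 := eqv_add f2 hkj (a * v)
  refine ⟨_, k, (e1.trans e2).trans e3, ?_⟩
  rw [Function.update_self, hf2k, hf2j]
  have hval : f1 k + a * u * f i0 + a * v * f1 j = f1 k + a * (u * f i0 + v * f1 j) := by ring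
  rw [hval]
  have hcoeff : (f1 k + a * (u * f i0 + v * f1 j)).coeff ((f i0).natDegree - 1) = 1 := by
    rw [coeff_add, ha, coeff_C_mul, huv2]
    ring
  have hdeg2 : (f1 k + a * (u * f i0 + v * f1 j)).degree < (f i0).degree := by
    refine lt_of_le_of_lt (degree_add_le _ _) (max_lt (hdeg k hki) ?_)
    rw [ha, ← smul_eq_C_mul]
    exact lt_of_le_of_lt (degree_smul_le _ _) huv1
  have hnat : (f1 k + a * (u * f i0 + v * f1 j)).natDegree < (f i0).natDegree := by
    by_cases h0 : f1 k + a * (u * f i0 + v * f1 j) = 0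
    · rw [h0, natDegree_zero]
      exact hd
    · exact natDegree_lt_natDegree h0 hdeg2
  exact ⟨monic_of_natDegree_le_of_coeff_eq_one _ (by omega) hcoeff, hnat⟩

/-- H3.  Cardinality one: `f i0` is a unit and monic, so `1` (or: degree zero); two:
`eqv_single_of_card_two`; at least three: strong induction on `natDegree` with `horrocks_step`;
degree zero: `f i0 = 1`, `eqv_single_of_isUnit`. -/
theorem horrocks_local [IsLocalRing R] (f : ι → R[X]) (hf : Uni f) (i0 : ι) (h : (f i0).Monic)
    (i1 : ι) : Eqv f (Pi.single i1 1) := by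
  have hpos : 0 < Fintype.card ι := Fintype.card_pos_iff.mpr ⟨i0⟩
  rcases Nat.lt_or_ge (Fintype.card ι) 3 with hlt | h3
  · rcases Nat.lt_or_ge (Fintype.card ι) 2 with h1 | h2
    · have hsub : Subsingleton ι := Fintype.card_le_one_iff_subsingleton.mp (by omega)
      obtain ⟨g, hg⟩ := hf
      have hs : ∑ i, g i * f i = g i0 * f i0 :=
        Fintype.sum_eq_single i0 (fun j hj => absurd (Subsingleton.elim j i0) hj)
      rw [hs] at hg
      have hu : IsUnit (f i0) := ⟨⟨f i0, g i0, by rw [mul_comm]; exact hg, hg⟩, rfl⟩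
      exact eqv_single_of_isUnit f i0 i1 hu
    · exact eqv_single_of_card_two (by omega) f hf i1
  · have key : ∀ n : ℕ, ∀ f : ι → R[X], Uni f → ∀ i0 : ι, (f i0).Monic →
        (f i0).natDegree = n → Eqv f (Pi.single i1 1) := by
      intro n
      induction n using Nat.strong_induction_on with
      | _ n ih =>
        intro f hf i0 h hn
        rcases Nat.eq_zero_or_pos n with h0 | hp
        · have h1 : f i0 = 1 := (Polynomial.Monic.natDegree_eq_zero h).mp (hn.trans h0)
          exact eqv_single_of_isUnit f i0 i1 (by rw [h1]; exact isUnit_one)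
        · obtain ⟨g, k, hfg, hk, hlt⟩ := horrocks_step h3 f hf i0 h (by omega)
          exact hfg.trans (ih _ (by omega) g (hf.of_eqv hfg) k hk rfl)
    exact key _ f hf i0 h rfl

end Vale.Agent.P295Q
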