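import Mathlib

/-!
# Quillen-Suslin theorem for unimodular vectors (proof of Suslin/Vaserstein, as in Lang, Algebra,
XXI.3): definitions and plan (helper87).

`Uni f`: the components of `f` generate the unit ideal.  `Eqv f g`: `g = M f`, `M` invertible.
1. `horrocks_local`: `R` local, `f : ι → R[X]` unimodular with a monic component: `f ~ e_i`.
2. `loc_lemma`: `R` a domain, `f ~ f(0)` over `R_m[X]`: `f(x + c y) ~ f(x)` over `R[x, y]` for some
   `c ∉ m`.
3. `glob`: `R` a domain, `f` unimodular with a monic component: `f ~ f(0)` over `R[X]`.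
4. `quillen_suslin`: unimodular vectors over `k[x_1, ..., x_r]` are `~ e_i`.
-/

namespace Vale.Agent.P295Q

open Matrix Polynomial

/-- unimodular vector -/
def Uni {R ι : Type} [CommRing R] [Fintype ι] (f : ι → R) : Prop := ∃ g : ι → R, ∑ i, g i * f i = 1

/-- equivalence of vectors under invertible matrices -/
def Eqv {R ι : Type} [CommRing R] [Fintype ι] [DecidableEq ι] (f g : ι → R) : Prop :=
  ∃ M N : Matrix ι ι R, M * N = 1 ∧ N * M = 1 ∧ M *ᵥ f = g

/-- `p(x) ↦ p(x + c y)`, a ring homomorphism `R[x] → R[x][y]` -/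
noncomputable def shift {R : Type} [CommRing R] (c : R) : R[X] →+* R[X][X] :=
  Polynomial.eval₂RingHom ((C : R[X] →+* R[X][X]).comp (C : R →+* R[X])) (C X + C (C c) * X)

end Vale.Agent.P295Q
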